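import Vale.Agent.Lib.P065_helper23.Final

/-!
# P065: halving pairs of pseudoline arrangements, all exponents below one

`runW (List.range n) w = some (List.range n).reverse` says: starting from the list `0, 1, ..., n-1`, the
word `w` of positions swaps at each letter `p` the entries at positions `p, p+1`, which must be increasing,
and ends with the reversed list. That is a simple wiring diagram of `n` pseudolines (a reduced word of the
longest permutation, an allowable sequence). The letters equal to `n/2 - 1` are the crossings at the middle
level, that is the halving pairs of the allowable sequence.
-/

namespace Vale.Agent.Results.P065.A_all_beta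

open Vale.Agent.Lib.P065_helper23

/-- For every `β < 1` and all large even `n` there are simple arrangements of `n` pseudolines with at
least `n * exp ((log n) ^ β)` crossings at the middle level. -/
theorem result (β : ℝ) (hβ : β < 1) : ∃ N0 : ℕ, ∀ n : ℕ, N0 ≤ n → Even n → ∃ w : List ℕ,
    runW (List.range n) w = some (List.range n).reverse ∧
    (n : ℝ) * Real.exp ((Real.log n) ^ β) ≤ (w.count (n / 2 - 1) : ℝ) :=
  main_all hβ

end Vale.Agent.Results.P065.A_all_beta
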