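import Vale.Agent.Lib.P065_helper23.Kset

/-!
# P065: levels of pseudoline arrangements, all exponents below one

`runW (List.range n) w = some (List.range n).reverse` says: starting from the list `0, 1, ..., n-1`, the
word `w` of positions swaps at each letter `p` the entries at positions `p, p+1`, which must be increasing,
and ends with the reversed list. That is a simple wiring diagram of `n` pseudolines (a reduced word of the
longest permutation, an allowable sequence). The letters equal to `k - 1` are the crossings at level `k`,
which correspond to the `k`-sets of the allowable sequence.
-/

namespace Vale.Agent.Results.P065.A_kset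

open Vale.Agent.Lib.P065_helper23

/-- For every `β < 1`, all large `k` and all `n ≥ 2 * k` there are simple arrangements of `n` pseudolines
with at least `n * exp ((log k) ^ β)` crossings at level `k`. -/
theorem result (β : ℝ) (hβ : β < 1) : ∃ K0 : ℕ, ∀ k n : ℕ, K0 ≤ k → 2 * k ≤ n → ∃ w : List ℕ,
    runW (List.range n) w = some (List.range n).reverse ∧
    (n : ℝ) * Real.exp ((Real.log k) ^ β) ≤ (w.count (k - 1) : ℝ) :=
  main_kset hβ

end Vale.Agent.Results.P065.A_kset
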